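import Vale.Agent.P178.H551.Hur4
import Vale.Agent.P178.H924.Detect
import Vale.Agent.P178.H847.QK

/-! # P178: the abstract assembly

A commutative square of simplicial sets, a simplicial 4-cycle of the source which bounds in one
corner and is detected by a simplicial cocycle in the other corner. -/

namespace Vale.Agent.P178.H956

open CategoryTheory Simplicial Opposite Topology Set
open Vale.Agent.P246.T (Ch bd push LftS)
open Vale.Agent.P178.H924 (Re SCh sbd can spush sev rmap)

/-- vanishing of the simplicial homology in degrees 2 and 3 gives vanishing of the relative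
homotopy groups in degrees below 4 -/
theorem lft_of_simplicial {X : SSet.{0}} [SimplyConnectedSpace (Re X)] (z : Re X)
    (h : ∀ k < 2, ∀ x : SCh X (k + 2), sbd X (k + 1) x = 0 → ∃ y, sbd X (k + 2) y = x) :
    ∀ k < 2 + 2, LftS ({z} : Set (Re X)) k := by
  refine H551.lft z 2 fun k hk c hc => ?_
  obtain ⟨b, hb⟩ := H924.sing_zero (h k hk) c hc
  exact ⟨b, hb⟩

/-- **The abstract assembly.** Let `S → Q → Q'` and `S → S' → Q'` be a commutative square of
simplicial sets, such that `|S|` and `|S'|` are simply connected and the second and third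
simplicial homology groups of `S` and `S'` vanish. Let `c` be a simplicial 4-cycle of `S` whose
image in `S'` bounds, and `τ` a simplicial 4-cocycle of `Q` which does not vanish on the image
of `c`. Then `π_4(|Q|) → π_4(|Q'|)` is not injective. -/
theorem not_injective_of_simplicial {S S' Q Q' : SSet.{0}}
    (φ : S ⟶ Q) (f : S ⟶ S') (φ' : S' ⟶ Q') (g : Q ⟶ Q')
    (hsq : φ ≫ g = f ≫ φ') [SimplyConnectedSpace (Re S)] [SimplyConnectedSpace (Re S')]
    (h : ∀ k < 2, ∀ x : SCh S (k + 2), sbd S (k + 1) x = 0 → ∃ y, sbd S (k + 2) y = x)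
    (h' : ∀ k < 2, ∀ x : SCh S' (k + 2), sbd S' (k + 1) x = 0 → ∃ y, sbd S' (k + 2) y = x)
    (s : S _⦋0⦌) {q : Re Q} {q' : Re Q'} (hs : H847.vtx Q (φ.app (op ⦋0⦌) s) = q)
    (hg : (SSet.toTop.map g).hom q = q') (c : SCh S 4) (hc : sbd S 3 c = 0)
    (hb : ∃ b, sbd S' 4 b = spush f 4 c) {M : Type*} [AddCommGroup M] (τ : Q _⦋4⦌ → M)
    (hτ : ∀ y : Q _⦋5⦌, ∑ i : Fin 6, (-1 : ℤ) ^ (i : ℕ) • τ (Q.δ i y) = 0)
    (hne : sev τ (spush φ 4 c) ≠ 0) :
    ¬ Function.Injective (H847.piMap (Fin 4) (SSet.toTop.map g).hom hg) := by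
  have hφs : rmap φ (H847.vtx S s) = q := (H847.map_vtx φ s).trans hs
  have hsq' : (rmap g).comp (rmap φ) = (rmap φ').comp (rmap f) := by
    rw [← H924.rmap_comp, ← H924.rmap_comp, hsq]
  have hφ' : rmap φ' (rmap f (H847.vtx S s)) = q' := by
    have := DFunLike.congr_fun hsq' (H847.vtx S s)
    exact this.symm.trans ((congrArg (rmap g) hφs).trans hg)
  exact H551.not_injective_of_cycle (m := 2) (S := Re S) (S' := Re S') (Q := Re Q)
    (Q' := Re Q') (s := H847.vtx S s) (s' := rmap f (H847.vtx S s)) (q := q) (q' := q')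
    (rmap φ) hφs (rmap f) rfl (rmap φ') hφ' (rmap g) hg hsq'
    (lft_of_simplicial _ h) (lft_of_simplicial _ h') (can S 4 c)
    (by rw [H924.bd_can, hc, map_zero])
    (by
      obtain ⟨b, hb⟩ := hb
      exact ⟨can S' 5 b, by rw [H924.push_can, ← hb, H924.bd_can]⟩)
    (by
      rintro ⟨b, hb⟩
      rw [H924.push_can] at hb
      refine hne (H924.detect hτ (x := spush φ 4 c) ?_ hb.symm)
      show sbd Q 3 (spush φ 4 c) = 0
      rw [← H924.spush_sbd, hc, map_zero])

end Vale.Agent.P178.H956
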