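import Vale.Agent.P178.H956.RelHur

/-! # P178: injectivity of the Hurewicz map, in the form of single simplices

Let `Z` be simply connected with `H_k(Z) = 0` for `0 < k < n`. A singular simplex
`σ : (Δ^n, ∂Δ^n) → (Z, z)` which represents zero in `H_n(Z, z)` is homotopic to the constant map
relative to the boundary. -/

namespace Vale.Agent.P178.H956

open Topology Metric Set Vale.Agent.P246.T Vale.Agent.P246.T.PR Vale.Agent.P246.T.LL

/-- `σ` is homotopic to the constant map relative to the boundary -/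
def NullH {Z : Type} [TopologicalSpace Z] (z : Z) (n : ℕ) (σ : C(Dl (n + 1), Z)) : Prop :=
  ∃ K : Hm (n + 1) Z, (∀ x, K (0, x) = σ x) ∧ (∀ x, K (1, x) = z) ∧
    ∀ i t x, K (t, face n i x) = z

/-! ### Chains over the path space -/

/-- A chain of the path space with low skeleton over `A`, whose image is null, is null. -/
theorem null_of_push {B : Type} [TopologicalSpace B] [SimplyConnectedSpace B] (b : B) (A : Set B)
    (n : ℕ) (hL : ∀ k < n, LftS A k) (y : Ch n (PP b)) (hs : y ∈ Sk (ev b ⁻¹' A) n n)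
    (hN : Null univ A n (push (ev b) n y)) : Null univ (ev b ⁻¹' A) n y := by
  obtain ⟨ρ', D', g1, g2, g3, g4, g5, g6, g7⟩ := HC.main B A n hL
  have hs' : push (ev b) n y ∈ Sk A n n := push_mem_Sk (fun x hx => hx) hs
  obtain ⟨z, -, hz⟩ := hN
  have ha := g4 n _ hz
  rw [map_sub, g7 n _ hs', ← g1] at ha
  -- lift
  have hy : y = bd n (lam b (n + 1) (ρ' (n + 1) z)) +
      lam b n (push (ev b) n y - bd n (ρ' (n + 1) z)) +
      (y - bd n (lam b (n + 1) (ρ' (n + 1) z)) -
        lam b n (push (ev b) n y - bd n (ρ' (n + 1) z))) := by abel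
  rw [hy]
  refine null_add (null_add (null_bd (Con_univ _)) (null_of_con (lam_mem_Con b ha))) ?_
  have hw1 : (y - bd n (lam b (n + 1) (ρ' (n + 1) z)) -
        lam b n (push (ev b) n y - bd n (ρ' (n + 1) z))) ∈ Sk (ev b ⁻¹' A) n n :=
    Submodule.sub_mem _ (Submodule.sub_mem _ hs (bd_mem_Sk (lam_mem_Sk b (g6 _ _))))
      (Con_le_Sk (lam_mem_Con b ha))
  have hw2 : push (ev b) n (y - bd n (lam b (n + 1) (ρ' (n + 1) z)) -
        lam b n (push (ev b) n y - bd n (ρ' (n + 1) z))) = 0 := by
    rw [map_sub, map_sub, ← push_bd, push_lam, push_lam, sub_self]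
  generalize (y - bd n (lam b (n + 1) (ρ' (n + 1) z)) -
        lam b n (push (ev b) n y - bd n (ρ' (n + 1) z))) = w at hw1 hw2
  -- chains in the kernel
  have key : ∀ w ∈ Sk (ev b ⁻¹' A) n n,
      Null univ (ev b ⁻¹' A) n (w - lam b n (push (ev b) n w)) := by
    intro w hw
    refine Sk_ind (P := fun w => Null univ (ev b ⁻¹' A) n (w - lam b n (push (ev b) n w)))
      ?_ ?_ ?_ hw
    · rw [map_zero, map_zero, sub_zero]; exact null_zero
    · intro a b ha hb
      rw [map_add, map_add, add_sub_add_comm]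
      exact null_add ha hb
    · intro m σ h
      rw [push_single, lam_single]
      have := null_smul m (diff b A n (lft b ((ev b).comp σ)) σ (ev_lft b _) (fun x hx => by
        show ((ev b).comp (lft b ((ev b).comp σ))) x ∈ A
        rw [ev_lft]
        exact h x hx))
      rw [smul_sub, Finsupp.smul_single, Finsupp.smul_single, smul_eq_mul, mul_one] at this
      exact this
  have := key w hw1
  rwa [hw2, map_zero, sub_zero] at this

/-! ### Degree one -/

section One

open BS

variable {F : Type} [TopologicalSpace F]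

theorem hur_one [PathConnectedSpace F] (f0 : F)
    (hcomm : ∀ p p' : Path f0 f0, (p.trans p').Homotopic (p'.trans p))
    (σ : C(Dl 2, F)) (hσ : ∀ i x, σ (face 1 i x) = f0)
    (hN : Null univ ({f0} : Set F) 1 (Finsupp.single σ 1)) : NullH f0 1 σ := by
  have hab : ∀ a b : FundamentalGroup F f0, a * b = b * a := by
    intro a b
    obtain ⟨p, rfl⟩ := Path.Homotopic.Quotient.mk_surjective a
    obtain ⟨p', rfl⟩ := Path.Homotopic.Quotient.mk_surjective b
    exact Path.Homotopic.Quotient.eq.2 (hcomm p' p)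
  have hinj : ∀ a : FundamentalGroup F f0, cls f0 a = 0 → a = 1 := by
    intro a ha
    have h1 : Abelianization.of a = 1 := ha
    let _ : CommGroup (FundamentalGroup F f0) :=
      { (inferInstance : Group (FundamentalGroup F f0)) with mul_comm := hab }
    have h2 := congrArg (Abelianization.lift (MonoidHom.id (FundamentalGroup F f0))) h1
    simpa using h2
  -- the path of `σ`
  let e : Dl 2 ≃ₜ I := stdSimplexHomeomorphUnitInterval
  let γ : C(I, F) := ⟨fun t => σ (e.symm t), σ.continuous.comp e.symm.continuous⟩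
  have hγ : γ.comp par = σ := by
    ext x
    show σ (e.symm (e x)) = σ x
    rw [e.symm_apply_apply]
  have hv : ∀ j : Fin 2, σ (stdSimplex.vertex j) = f0 := by
    intro j
    have h1 : ∀ i : Fin 2, face 1 i (stdSimplex.vertex 0) = stdSimplex.vertex (i.succAbove 0) :=
      fun i => face_vertex 1 i 0
    fin_cases j
    · have := hσ 1 (stdSimplex.vertex 0)
      rw [h1] at this
      exact this
    · have := hσ 0 (stdSimplex.vertex 0)
      rw [h1] at this
      exact this
  have hγ0 : γ 0 = f0 := by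
    rw [← par_zero]
    show (γ.comp par) (stdSimplex.vertex 0) = f0
    rw [hγ]; exact hv 0
  have hγ1 : γ 1 = f0 := by
    rw [← par_one]
    show (γ.comp par) (stdSimplex.vertex 1) = f0
    rw [hγ]; exact hv 1
  -- the cochain vanishes on `σ`
  have hconst : ∀ c ∈ Con ({f0} : Set F) 1, coch f0 c = 0 := by
    intro c hc
    refine Con_ind (P := fun c => coch f0 c = 0) (map_zero _) ?_ ?_ hc
    · intro a b ha hb; rw [map_add, ha, hb, add_zero]
    · intro m τ hτ
      rw [coch_single]
      have h1 := cls_trans f0 (g f0 τ (stdSimplex.vertex 0) (stdSimplex.vertex 0))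
        (g f0 τ (stdSimplex.vertex 0) (stdSimplex.vertex 0))
      rw [g_trans] at h1
      have h2 : cls f0 (g f0 τ (stdSimplex.vertex 0) (stdSimplex.vertex 0)) = 0 := by
        have h3 := congrArg (fun w => w - cls f0 (g f0 τ (stdSimplex.vertex 0)
          (stdSimplex.vertex 0))) h1
        simpa using h3.symm
      -- `τ` is constant
      have h4 : τ = ContinuousMap.const _ f0 := ContinuousMap.ext fun x => hτ x
      have h5 : ∀ x y : Dl 2, g f0 τ x y = g f0 τ x x := by
        intro x y
        subst h4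
        have e1 : (PathConnectedSpace.somePath x y).map
            (ContinuousMap.const (Dl 2) f0).continuous = Path.refl f0 := by ext t; rfl
        have e2 : (PathConnectedSpace.somePath x x).map
            (ContinuousMap.const (Dl 2) f0).continuous = Path.refl f0 := by ext t; rfl
        have e3 : (Path.Homotopic.Quotient.mk ((PathConnectedSpace.somePath x y).map
            (ContinuousMap.const (Dl 2) f0).continuous) : Qt f0 f0) =
            Path.Homotopic.Quotient.mk ((PathConnectedSpace.somePath x x).map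
            (ContinuousMap.const (Dl 2) f0).continuous) := congrArg _ (e1.trans e2.symm)
        exact congrArg (fun w : Qt f0 f0 => ((q f0 f0).trans w).trans (q f0 f0).symm) e3
      rw [h5, h2, smul_zero]
  obtain ⟨b, -, hb⟩ := hN
  have h1 := hconst _ hb
  rw [map_sub, coch_bd, sub_zero, coch_single, one_smul, ← hγ, g_comp, par_zero, par_one,
    g_path f0 γ hγ0 hγ1] at h1
  have h2 := hinj _ h1
  have h3 : ((q f0 f0).trans (.mk ⟨γ, hγ0, hγ1⟩)).trans (q f0 f0).symm = (.refl f0 : Qt f0 f0) :=
    h2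
  obtain ⟨H⟩ := Path.Homotopic.Quotient.eq.1 (conj_cancel _ _ h3)
  refine ⟨⟨fun w => H (w.1, par w.2), by fun_prop⟩, fun x => ?_, fun x => ?_, fun i t x => ?_⟩
  · show H (0, par x) = σ x
    rw [H.apply_zero, ← hγ]
    rfl
  · show H (1, par x) = f0
    rw [H.apply_one]
    rfl
  · show H (t, par (face 1 i x)) = f0
    have hx : x = stdSimplex.vertex 0 := Subsingleton.elim _ _
    rw [hx, face_vertex]
    fin_cases i
    · show H (t, par (stdSimplex.vertex 1)) = f0
      rw [par_one, H.target]
    · show H (t, par (stdSimplex.vertex 0)) = f0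
      rw [par_zero, H.source]

end One

/-! ### The induction step -/

section Step

open PS1

variable {Z : Type} [TopologicalSpace Z]

/-- the loops at `z` -/
abbrev FL (z : Z) : Type := ↥(ev z ⁻¹' ({z} : Set Z))

/-- the constant loop -/
def fl0 (z : Z) : FL z := ⟨⟨ContinuousMap.const I z, rfl⟩, rfl⟩

/-- the constant path -/
def pp0 (z : Z) : PP z := ⟨ContinuousMap.const I z, rfl⟩

theorem seg_face {k : ℕ} (i : Fin (k + 2)) (hi : i ≠ 0) (x : Dl (k + 1)) (t : I) :
    seg (v0 (k + 1)) (face (k + 1) i x) t i = 0 := by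
  show (1 - (t : ℝ)) * (v0 (k + 1) i) + t * face (k + 1) i x i = 0
  have h1 : (v0 (k + 1) : Dl (k + 2)) i = 0 := by
    show (stdSimplex.vertex (S := ℝ) (0 : Fin (k + 2))) i = 0
    simp [stdSimplex.vertex, hi]
  rw [h1, CV.face_self]
  ring

/-- the lift which is constant on all faces but the face `0` -/
noncomputable def lift0 {n : ℕ} (z : Z) (σ : C(Dl (n + 2), Z))
    (hσ : ∀ i x, σ (face (n + 1) i x) = z) : C(Dl (n + 2), PP z) :=
  mk (b := z) ⟨fun q => σ (seg (v0 (n + 1)) q.1 q.2),
    σ.continuous.comp (continuous_seg' continuous_const continuous_fst continuous_snd)⟩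
    (fun x => by
      show σ (seg (v0 (n + 1)) x 0) = z
      rw [seg_zero]
      have h : (v0 (n + 1) : Dl (n + 2)) (Fin.last (n + 1)) = 0 := by
        show (stdSimplex.vertex (S := ℝ) (0 : Fin (n + 2))) (Fin.last (n + 1)) = 0
        simp [stdSimplex.vertex]
      obtain ⟨y, hy⟩ := CV.exists_face _ h
      rw [← hy, hσ])

theorem lift0_apply {n : ℕ} (z : Z) (σ : C(Dl (n + 2), Z))
    (hσ : ∀ i x, σ (face (n + 1) i x) = z) (x : Dl (n + 2)) (t : I) :
    (lift0 z σ hσ x).1 t = σ (seg (v0 (n + 1)) x t) := rfl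

theorem ev_lift0 {n : ℕ} (z : Z) (σ : C(Dl (n + 2), Z))
    (hσ : ∀ i x, σ (face (n + 1) i x) = z) (x : Dl (n + 2)) : ev z (lift0 z σ hσ x) = σ x := by
  show σ (seg (v0 (n + 1)) x 1) = σ x
  rw [seg_one]

theorem lift0_face {n : ℕ} (z : Z) (σ : C(Dl (n + 2), Z))
    (hσ : ∀ i x, σ (face (n + 1) i x) = z) (i : Fin (n + 2)) (hi : i ≠ 0) (x : Dl (n + 1)) :
    lift0 z σ hσ (face (n + 1) i x) = pp0 z := by
  refine Subtype.ext (ContinuousMap.ext fun t => ?_)
  show σ (seg (v0 (n + 1)) (face (n + 1) i x) t) = z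
  obtain ⟨y, hy⟩ := CV.exists_face i (seg_face i hi x t)
  rw [← hy, hσ]

/-- the induction step -/
theorem hur_step [SimplyConnectedSpace Z] (z : Z) (n : ℕ)
    (hL : ∀ k < n + 2, LftS ({z} : Set Z) k)
    (ih : ∀ σ : C(Dl (n + 2), FL z), (∀ i x, σ (face (n + 1) i x) = fl0 z) →
      Null univ ({fl0 z} : Set (FL z)) (n + 1) (Finsupp.single σ 1) → NullH (fl0 z) (n + 1) σ)
    (σ : C(Dl (n + 3), Z)) (hσ : ∀ i x, σ (face (n + 2) i x) = z)
    (hN : Null univ ({z} : Set Z) (n + 2) (Finsupp.single σ 1)) : NullH z (n + 2) σ := by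
  set τ : C(Dl (n + 3), PP z) := lift0 z σ hσ with hτ
  have hτσ : (ev z).comp τ = σ := ContinuousMap.ext fun x => ev_lift0 z σ hσ x
  -- the lift is null
  have h1 : Null univ (ev z ⁻¹' ({z} : Set Z)) (n + 2) (Finsupp.single τ 1) := by
    refine null_of_push z {z} (n + 2) hL _ ?_ ?_
    · refine single_mem_Sk (fun x hx => ?_) 1
      show ev z (τ x) = z
      rw [ev_lift0]
      -- some coordinate vanishes
      obtain ⟨i, hi⟩ : ∃ i, x i = 0 := by
        by_contra hcon
        push Not at hcon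
        have : (Finset.univ.filter fun i => x i ≠ 0) = (Finset.univ : Finset (Fin (n + 3))) :=
          Finset.filter_true_of_mem fun i _ => hcon i
        rw [this, Finset.card_univ, Fintype.card_fin] at hx
        omega
      obtain ⟨y, hy⟩ := CV.exists_face i hi
      rw [← hy, hσ]
    · rw [push_single, hτσ]
      exact hN
  -- the face `0`
  let σ' : C(Dl (n + 2), FL z) := ⟨fun y => ⟨τ (face (n + 2) 0 y), by
    show ev z (τ (face (n + 2) 0 y)) = z
    rw [ev_lift0, hσ]⟩, by fun_prop⟩
  have hσ' : ∀ y, (σ' y).1 = τ (face (n + 2) 0 y) := fun y => rfl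
  have hσ'f : ∀ i x, σ' (face (n + 1) i x) = fl0 z := by
    intro i x
    refine Subtype.ext ?_
    show τ (face (n + 2) 0 (face (n + 1) i x)) = pp0 z
    have h2 := Sys.face_face (k := n + 1) 0 i (Fin.zero_le _) x
    have h3 : face (n + 2) 0 (face (n + 1) i x) = face (n + 2) i.succ (face (n + 1) 0 x) := by
      rw [h2]; rfl
    rw [h3]
    exact lift0_face z σ hσ i.succ (Fin.succ_ne_zero i) _
  have h2 : Null univ ({fl0 z} : Set (FL z)) (n + 1) (Finsupp.single σ' 1) := by
    obtain ⟨b, -, hb⟩ := h1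
    obtain ⟨f', hf'⟩ := exists_push_inc hb
    refine ⟨f', Con_univ _, ?_⟩
    -- the chain `σ' - bd f'` after inclusion
    have e1 : ({fl0 z} : Set (FL z)) = (inc (ev z ⁻¹' ({z} : Set Z))) ⁻¹' {pp0 z} := by
      ext w
      constructor
      · intro hw
        rw [mem_singleton_iff.1 hw]
        rfl
      · intro hw
        exact Subtype.ext hw
    rw [e1, ← push_mem_iff (f := inc (ev z ⁻¹' ({z} : Set Z))) Subtype.val_injective, map_sub,
      ← push_bd, hf', map_sub, SD.bd_bd, sub_zero, push_single, bd_single, Fin.sum_univ_succ]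
    have e2 : (inc (ev z ⁻¹' ({z} : Set Z))).comp σ' = τ.comp (face (n + 2) 0) := rfl
    rw [e2]
    have e3 : (1 : ℤ) * (-1) ^ (((0 : Fin (n + 3)) : ℕ)) = 1 := by simp
    rw [e3, sub_add_cancel_left]
    refine Submodule.neg_mem _ (Submodule.sum_mem _ fun i _ => single_mem (fun x => ?_) _)
    exact lift0_face z σ hσ i.succ (Fin.succ_ne_zero i) x
  obtain ⟨K', hK0, hK1, hKf⟩ := ih σ' hσ'f h2
  -- extend the homotopy of the face `0`
  let G : Fin (n + 3) → Hm (n + 2) (PP z) := fun i =>
    if i = 0 then (inc (ev z ⁻¹' ({z} : Set Z))).comp K' else ContinuousMap.const _ (pp0 z)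
  have hG0 : G 0 = (inc (ev z ⁻¹' ({z} : Set Z))).comp K' := if_pos rfl
  have hGi : ∀ i, i ≠ 0 → G i = ContinuousMap.const _ (pp0 z) := fun i hi => if_neg hi
  obtain ⟨K, hKa, hKb⟩ := Sys.hep (X := PP z) (k := n + 2) τ G
    (fun i y => by
      by_cases hi : i = 0
      · subst hi
        rw [hG0]
        show (K' (0, y)).1 = _
        rw [hK0]
        rfl
      · rw [hGi i hi, lift0_face z σ hσ i hi y]
        rfl)
    (fun i j y y' hy t => by
      refine Sys.matching (T := PP z) (k := n + 1) (fun i y => G i (t, y)) ?_ i j y y' hy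
      intro i j hij w
      show G i.castSucc (t, face (n + 1) j w) = G j.succ (t, face (n + 1) i w)
      rw [hGi j.succ (Fin.succ_ne_zero j)]
      by_cases hi : i.castSucc = 0
      · rw [hi, hG0]
        show (K' (t, face (n + 1) j w)).1 = pp0 z
        rw [hKf]
        rfl
      · rw [hGi _ hi]
        rfl)
  have hGev : ∀ i t y, ev z (G i (t, y)) = z := by
    intro i t y
    by_cases hi : i = 0
    · subst hi
      rw [hG0]
      exact (K' (t, y)).2
    · rw [hGi i hi]
      rfl
  have hG1 : ∀ i y, G i (1, y) = pp0 z := by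
    intro i y
    by_cases hi : i = 0
    · subst hi
      rw [hG0]
      show (K' (1, y)).1 = pp0 z
      rw [hK1]
      rfl
    · rw [hGi i hi]
      rfl
  -- the homotopy
  let F1 : C(Dl (n + 3) × I, Z) := ⟨fun q => ev z (K (q.2, q.1)), by fun_prop⟩
  let F2 : C(Dl (n + 3) × I, Z) := ⟨fun q => (K (1, q.1)).1 (unitInterval.symm q.2), by fun_prop⟩
  have h12 : ∀ x, F1 (x, 1) = F2 (x, 0) := by
    intro x
    show (K (1, x)).1 1 = (K (1, x)).1 (unitInterval.symm 0)
    rw [unitInterval.symm_zero]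
  refine ⟨⟨fun q => cat F1 F2 h12 (q.2, q.1), by fun_prop⟩, fun x => ?_, fun x => ?_,
    fun i t y => ?_⟩
  · show cat F1 F2 h12 (x, 0) = σ x
    rw [cat_zero]
    show ev z (K (0, x)) = σ x
    rw [hKa, ev_lift0]
  · show cat F1 F2 h12 (x, 1) = z
    rw [cat_one]
    show (K (1, x)).1 (unitInterval.symm 1) = z
    rw [unitInterval.symm_one]
    exact (K (1, x)).2
  · show (if (t : ℝ) ≤ 1 / 2 then F1 (face (n + 2) i y, dbl t)
      else F2 (face (n + 2) i y, dbr t)) = z
    split_ifs
    · show ev z (K (dbl t, face (n + 2) i y)) = z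
      rw [hKb, hGev]
    · show (K (1, face (n + 2) i y)).1 (unitInterval.symm (dbr t)) = z
      rw [hKb, hG1]
      rfl

end Step

/-! ### The induction -/

/-- **Injectivity of the Hurewicz map in degree `n + 2`**, for a simply connected space with
`H_k(Z, z) = 0` for `k < n + 2`. -/
theorem hur_inj (n : ℕ) : ∀ (Z : Type) [TopologicalSpace Z] [SimplyConnectedSpace Z] (z : Z),
    (∀ k < n + 2, HZero univ ({z} : Set Z) k) → ∀ σ : C(Dl (n + 3), Z),
    (∀ i x, σ (face (n + 2) i x) = z) →
    Null univ ({z} : Set Z) (n + 2) (Finsupp.single σ 1) → NullH z (n + 2) σ := by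
  induction n with
  | zero =>
    intro Z _ _ z hz σ hσ hN
    have hsc : SimplyConnectedSpace ({z} : Set Z) := by
      have : Unique ({z} : Set Z) := Set.uniqueSingleton z
      infer_instance
    have hL : ∀ k < 0 + 2, LftS ({z} : Set Z) k := fun k hk =>
      relHur 1 Z {z} (fun j hj => hz j (by omega)) k (by omega)
    have hpc : PathConnectedSpace (FL z) := BS.pathConnected (A := ({z} : Set Z)) rfl
    refine hur_step z 0 hL (fun σ' hσ' hN' => ?_) σ hσ hN
    exact hur_one (fl0 z) (BS.comm_Fi (A := ({z} : Set Z)) rfl) σ' hσ' hN'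
  | succ n ih =>
    intro Z _ _ z hz σ hσ hN
    have hsc : SimplyConnectedSpace ({z} : Set Z) := by
      have : Unique ({z} : Set Z) := Set.uniqueSingleton z
      infer_instance
    have hL : ∀ k < n + 1 + 2, LftS ({z} : Set Z) k := fun k hk =>
      relHur (n + 2) Z {z} (fun j hj => hz j (by omega)) k (by omega)
    refine hur_step z (n + 1) hL (fun σ' hσ' hN' => ?_) σ hσ hN
    obtain ⟨hc, -, -, -, -⟩ := PS.main Z z
    have hzF : ∀ j < n + 3, HZero univ (ev z ⁻¹' ({z} : Set Z)) j := fun j hj =>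
      LL.main_of HC.main Z z {z} j (fun k hk => hL k (by omega)) (hz j (by omega))
    have hcyc : ∀ k ≤ n, ∀ c : Ch (k + 1) (PP z), c ∈ Con (ev z ⁻¹' ({z} : Set Z)) (k + 1) →
        bd k c = 0 → ∃ b ∈ Con (ev z ⁻¹' ({z} : Set Z)) (k + 2), bd (k + 1) b = c := fun k hk =>
      RH.cyc_bound (PP z) (ev z ⁻¹' ({z} : Set Z)) k (hzF (k + 2) (by omega))
    have hscF : SimplyConnectedSpace (FL z) := BS.main Z {z} z rfl (hcyc 0 (by omega))
    have hcycF : ∀ k < n + 1, ∀ c : Ch (k + 1) (FL z), bd k c = 0 → ∃ b, bd (k + 1) b = c := by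
      intro k hk c hc0
      obtain ⟨b, hb, hbc⟩ := hcyc k (by omega) (push (inc (ev z ⁻¹' ({z} : Set Z))) (k + 1) c)
        (push_inc_mem c) (by rw [push_bd, hc0, map_zero])
      obtain ⟨b', rfl⟩ := exists_push_inc hb
      refine ⟨b', push_inc_injective (k + 1) ?_⟩
      rw [← push_bd, hbc]
    have hpt := RH.hzero_pt (FL z) (fl0 z) (n + 1) hcycF
    exact ih (FL z) (fl0 z) (fun k hk => hpt k (by omega)) σ' hσ' hN'

end Vale.Agent.P178.H956
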