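import Vale.Agent.P178.H956.HurInj

/-! # P178: every relative cycle of a highly connected space is represented by one simplex -/

namespace Vale.Agent.P178.H956

open Topology Metric Set Vale.Agent.P246.T Vale.Agent.P246.T.PR Vale.Agent.P246.T.LL

/-! ### A piecewise linear map from the prism to the simplex -/

/-- the sum of the coordinates with index at least `m` -/
noncomputable def tl {k : ℕ} (y : Dl k) (m : ℕ) : ℝ := ∑ i : Fin k, if m ≤ (i : ℕ) then y i else 0

theorem tl_zero {k : ℕ} (y : Dl k) : tl y 0 = 1 := by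
  have h : ∑ i, y i = 1 := y.2.2
  simpa [tl] using h

theorem tl_top {k : ℕ} (y : Dl k) : tl y k = 0 := by
  rw [tl]
  refine Finset.sum_eq_zero fun i _ => ?_
  rw [if_neg (by have := i.2; omega)]

theorem tl_nonneg {k : ℕ} (y : Dl k) (m : ℕ) : 0 ≤ tl y m :=
  Finset.sum_nonneg fun i _ => by
    split_ifs
    · exact y.2.1 i
    · exact le_rfl

theorem tl_succ {k : ℕ} (y : Dl k) (m : Fin k) : tl y m = y m + tl y (m + 1) := by
  have h : ∀ i : Fin k, (if (m : ℕ) ≤ (i : ℕ) then y i else 0) =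
      (if i = m then y m else 0) + (if (m : ℕ) + 1 ≤ (i : ℕ) then y i else 0) := by
    intro i
    by_cases h1 : i = m
    · subst h1
      simp
    · have h2 : (i : ℕ) ≠ m := fun h => h1 (Fin.ext h)
      by_cases h3 : (m : ℕ) ≤ i
      · rw [if_pos h3, if_neg h1, if_pos (by omega), zero_add]
      · rw [if_neg h3, if_neg h1, if_neg (by omega), zero_add]
  rw [tl, tl, Finset.sum_congr rfl fun i _ => h i, Finset.sum_add_distrib]
  simp

theorem tl_anti {k : ℕ} (y : Dl k) (m : ℕ) : tl y (m + 1) ≤ tl y m := by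
  refine Finset.sum_le_sum fun i _ => ?_
  have := y.2.1 i
  split_ifs
  · exact le_rfl
  · omega
  · exact this
  · exact le_rfl

theorem continuous_tl {k : ℕ} (m : ℕ) : Continuous fun y : Dl k => tl y m := by
  refine continuous_finsetSum _ fun i _ => ?_
  split_ifs
  · exact (continuous_apply i).comp continuous_subtype_val
  · exact continuous_const

/-- the coordinates of the map -/
noncomputable def kapf (n : ℕ) (q : I × Dl (n + 1)) : Fin (n + 2) → ℝ :=
  Fin.cons (1 - (q.1 : ℝ)) fun m : Fin (n + 1) =>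
    min (q.1 : ℝ) (tl q.2 m) - min (q.1 : ℝ) (tl q.2 (m + 1))

/-- the piecewise linear map from the prism to the simplex, which sends the bottom of the prism to
the vertex `0` -/
noncomputable def kap (n : ℕ) : C(I × Dl (n + 1), Dl (n + 2)) where
  toFun q := ⟨kapf n q, by
    constructor
    · intro i
      refine Fin.cases ?_ (fun m => ?_) i
      · show (0 : ℝ) ≤ 1 - (q.1 : ℝ)
        linarith [q.1.2.2]
      · show (0 : ℝ) ≤ min (q.1 : ℝ) (tl q.2 m) - min (q.1 : ℝ) (tl q.2 (m + 1))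
        have := min_le_min_left (q.1 : ℝ) (tl_anti q.2 m)
        linarith
    · rw [Fin.sum_univ_succ]
      have h1 : ∀ m : Fin (n + 1), kapf n q m.succ =
          min (q.1 : ℝ) (tl q.2 m) - min (q.1 : ℝ) (tl q.2 (m + 1)) := fun m => rfl
      have h0 : kapf n q 0 = 1 - (q.1 : ℝ) := rfl
      rw [h0, Finset.sum_congr rfl fun m _ => h1 m,
        Fin.sum_univ_eq_sum_range (fun m => min (q.1 : ℝ) (tl q.2 m) -
          min (q.1 : ℝ) (tl q.2 (m + 1))) (n + 1), Finset.sum_range_sub', tl_zero, tl_top,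
        min_eq_left q.1.2.2, min_eq_right q.1.2.1]
      ring⟩
  continuous_toFun := by
    refine Continuous.subtype_mk (continuous_pi fun i => ?_) _
    refine Fin.cases ?_ (fun m => ?_) i
    · show Continuous fun q : I × Dl (n + 1) => 1 - (q.1 : ℝ)
      fun_prop
    · show Continuous fun q : I × Dl (n + 1) =>
        min (q.1 : ℝ) (tl q.2 m) - min (q.1 : ℝ) (tl q.2 (m + 1))
      have h1 : Continuous fun q : I × Dl (n + 1) => (q.1 : ℝ) := by fun_prop
      exact (h1.min ((continuous_tl _).comp continuous_snd)).sub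
        (h1.min ((continuous_tl _).comp continuous_snd))

theorem kap_zero_coord {n : ℕ} (q : I × Dl (n + 1)) : kap n q 0 = 1 - (q.1 : ℝ) := rfl

theorem kap_succ_coord {n : ℕ} (q : I × Dl (n + 1)) (m : Fin (n + 1)) : kap n q m.succ =
    min (q.1 : ℝ) (tl q.2 m) - min (q.1 : ℝ) (tl q.2 (m + 1)) := rfl

/-- the boundary of the prism is mapped to the boundary of the simplex -/
theorem kap_bdry {n : ℕ} (q : I × Dl (n + 1)) (h : q.1 = 0 ∨ q.1 = 1 ∨ ∃ m, q.2 m = 0) :
    ∃ i, kap n q i = 0 := by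
  rcases h with h | h | ⟨m, h⟩
  · refine ⟨(0 : Fin (n + 1)).succ, ?_⟩
    rw [kap_succ_coord, h, Icc.coe_zero, min_eq_left (tl_nonneg _ _), min_eq_left (tl_nonneg _ _),
      sub_zero]
  · exact ⟨0, by rw [kap_zero_coord, h, Icc.coe_one, sub_self]⟩
  · refine ⟨m.succ, ?_⟩
    rw [kap_succ_coord, tl_succ, h, zero_add, sub_self]

theorem tl_map {k l : ℕ} (f : Fin k → Fin l) (t : Dl k) (m : ℕ) :
    tl (stdSimplex.map f t) m = ∑ i, if m ≤ (f i : ℕ) then t i else 0 :=
  sum_map f (fun i => m ≤ (i : ℕ)) t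

theorem kap_Q_zero (n : ℕ) : (kap n).comp (Q (n + 1) 0) = ContinuousMap.id _ := by
  ext t i
  show kap n (Q (n + 1) 0 t) i = t i
  have hs : ((Q (n + 1) 0 t).1 : ℝ) = tl t 1 := by
    show ∑ i : Fin (n + 2), (if (0 : Fin (n + 1)).castSucc < i then t i else 0) = _
    refine Finset.sum_congr rfl fun i _ => ?_
    have : ((0 : Fin (n + 1)).castSucc < i) ↔ 1 ≤ (i : ℕ) := by
      rw [Fin.lt_def, Fin.val_castSucc, Fin.val_zero]
      omega
    simp only [this]
  have hm : ∀ m : ℕ, min (tl t 1) (tl (Q (n + 1) 0 t).2 m) = tl t (m + 1) := by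
    intro m
    rcases Nat.eq_zero_or_pos m with rfl | hm
    · rw [tl_zero, min_eq_left]
      rw [← tl_zero t]
      exact tl_anti t 0
    · have h1 : tl (Q (n + 1) 0 t).2 m = tl t (m + 1) := by
        show tl (stdSimplex.map (fun i => (0 : Fin (n + 1)).predAbove i) t) m = _
        rw [tl_map]
        refine Finset.sum_congr rfl fun i _ => ?_
        have : (m ≤ (((0 : Fin (n + 1)).predAbove i : Fin (n + 1)) : ℕ)) ↔ m + 1 ≤ (i : ℕ) := by
          rw [val_pa, Fin.val_zero]
          by_cases h0 : 0 < (i : ℕ)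
          · rw [if_pos h0]; omega
          · rw [if_neg h0]; omega
        simp only [this]
      rw [h1, min_eq_right]
      obtain ⟨m', rfl⟩ : ∃ m', m = m' + 1 := ⟨m - 1, by omega⟩
      clear h1 hm
      induction m' with
      | zero => exact tl_anti t 1
      | succ m' ih => exact (tl_anti t _).trans ih
  refine Fin.cases ?_ (fun m => ?_) i
  · rw [kap_zero_coord, hs]
    have := tl_succ t 0
    have h0 := tl_zero t
    rw [Fin.val_zero] at this
    rw [h0] at this
    show (1 : ℝ) - tl t 1 = t 0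
    rw [zero_add] at this
    linarith
  · rw [kap_succ_coord, hs, hm, hm]
    have := tl_succ t m.succ
    rw [Fin.val_succ] at this
    linarith

theorem kap_Q_succ (n : ℕ) (j : Fin (n + 1)) (hj : j ≠ 0) (t : Dl (n + 2)) :
    kap n (Q (n + 1) j t) (0 : Fin (n + 1)).succ = 0 := by
  have hj' : 0 < (j : ℕ) := Nat.pos_of_ne_zero fun h => hj (Fin.ext h)
  have hs : ((Q (n + 1) j t).1 : ℝ) ≤ tl (Q (n + 1) j t).2 1 := by
    show ∑ i : Fin (n + 2), (if j.castSucc < i then t i else 0) ≤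
      tl (stdSimplex.map (fun i => j.predAbove i) t) 1
    rw [tl_map]
    refine Finset.sum_le_sum fun i _ => ?_
    have h0 : (0 : ℝ) ≤ t i := t.2.1 i
    by_cases h : j.castSucc < i
    · rw [if_pos h, if_pos]
      rw [val_pa]
      rw [Fin.lt_def, Fin.val_castSucc] at h
      rw [if_pos h]
      omega
    · rw [if_neg h]
      split_ifs
      · exact h0
      · exact le_rfl
  rw [kap_succ_coord, Fin.val_zero, tl_zero, min_eq_left (Q (n + 1) j t).1.2.2, zero_add,
    min_eq_left hs, sub_self]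

/-! ### Sums of simplices -/

variable {Z : Type} [TopologicalSpace Z]

/-- a point of the boundary goes to the base point -/
theorem bdry_apply {n : ℕ} {z : Z} {σ : C(Dl (n + 1), Z)} (hσ : ∀ i x, σ (face n i x) = z)
    {x : Dl (n + 1)} {i : Fin (n + 1)} (hi : x i = 0) : σ x = z := by
  obtain ⟨y, rfl⟩ := CV.exists_face i hi
  exact hσ i y

theorem exists_add (z : Z) (n : ℕ) (i₀ : Fin (n + 2)) (σ1 σ2 : C(Dl (n + 2), Z))
    (h1 : ∀ i x, σ1 (face (n + 1) i x) = z) (h2 : ∀ i x, σ2 (face (n + 1) i x) = z) :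
    ∃ σ3 : C(Dl (n + 2), Z), (∀ i x, σ3 (face (n + 1) i x) = z) ∧
      Null univ ({z} : Set Z) (n + 1) (Finsupp.single σ1 1 +
        (-1 : ℤ) ^ (i₀ : ℕ) • Finsupp.single σ2 1 - Finsupp.single σ3 1) := by
  let G : Fin (n + 2) → Hm (n + 1) Z := fun i =>
    if i = i₀ then σ2.comp (kap n) else ContinuousMap.const _ z
  have hG0 : G i₀ = σ2.comp (kap n) := if_pos rfl
  have hGi : ∀ i, i ≠ i₀ → G i = ContinuousMap.const _ z := fun i hi => if_neg hi
  have hGb : ∀ i (q : I × Dl (n + 1)), (q.1 = 0 ∨ q.1 = 1 ∨ ∃ m, q.2 m = 0) → G i q = z := by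
    intro i q hq
    by_cases hi : i = i₀
    · subst hi
      rw [hG0]
      obtain ⟨j, hj⟩ := kap_bdry q hq
      exact bdry_apply h2 hj
    · rw [hGi i hi]; rfl
  obtain ⟨K, hK0, hKf⟩ := Sys.hep (k := n + 1) σ1 G
    (fun i y => by rw [h1]; exact hGb i _ (Or.inl rfl))
    (fun i j y y' hy t => by
      refine Sys.matching (T := Z) (k := n) (fun i y => G i (t, y)) ?_ i j y y' hy
      intro i j _ w
      exact (hGb _ _ (Or.inr (Or.inr ⟨j, CV.face_self n j w⟩))).trans
        (hGb _ _ (Or.inr (Or.inr ⟨i, CV.face_self n i w⟩))).symm)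
  have hfc : ∀ i, Hm.fc K i = G i := fun i => ContinuousMap.ext fun q => hKf i q.1 q.2
  refine ⟨Hm.at K 1, fun i x => ?_, ?_⟩
  · show K (1, face (n + 1) i x) = z
    rw [hKf]
    exact hGb i _ (Or.inr (Or.inl rfl))
  · refine ⟨-pc (n + 2) K, Con_univ _, ?_⟩
    have hK0' : Hm.at K 0 = σ1 := ContinuousMap.ext hK0
    have hs : pc (n + 1) (G i₀) - Finsupp.single σ2 1 ∈ Con ({z} : Set Z) (n + 1) := by
      rw [pc, Fin.sum_univ_succ, hG0, ContinuousMap.comp_assoc, kap_Q_zero,
        ContinuousMap.comp_id, Fin.val_zero, pow_zero, one_smul, add_sub_cancel_left]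
      refine Submodule.sum_mem _ fun j _ => Submodule.smul_mem _ _ (single_mem (fun x => ?_) _)
      exact bdry_apply h2 (kap_Q_succ n j.succ (Fin.succ_ne_zero j) x)
    have hsum : ∑ i : Fin (n + 2), ((-1 : ℤ) ^ (i : ℕ)) • pc (n + 1) (Hm.fc K i) -
        (-1 : ℤ) ^ (i₀ : ℕ) • Finsupp.single σ2 1 ∈ Con ({z} : Set Z) (n + 1) := by
      rw [← Finset.add_sum_erase _ _ (Finset.mem_univ i₀), hfc, add_sub_right_comm, ← smul_sub]
      refine Submodule.add_mem _ (Submodule.smul_mem _ _ hs) (Submodule.sum_mem _ fun i hi => ?_)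
      refine Submodule.smul_mem _ _ (pc_mem _ _ fun t x => ?_)
      rw [hfc, hGi i (Finset.ne_of_mem_erase hi)]
      rfl
    rw [map_neg, bd_pc, hK0']
    have e : Finsupp.single σ1 1 + (-1 : ℤ) ^ (i₀ : ℕ) • Finsupp.single σ2 1 -
        Finsupp.single (Hm.at K 1) 1 - -(Finsupp.single (Hm.at K 1) 1 - Finsupp.single σ1 1 -
          ∑ i : Fin (n + 2), ((-1 : ℤ) ^ (i : ℕ)) • pc (n + 1) (Hm.fc K i)) =
        -(∑ i : Fin (n + 2), ((-1 : ℤ) ^ (i : ℕ)) • pc (n + 1) (Hm.fc K i) -
          (-1 : ℤ) ^ (i₀ : ℕ) • Finsupp.single σ2 1) := by abel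
    rw [e]
    exact Submodule.neg_mem _ hsum

/-- **Surjectivity of the Hurewicz map.** Every chain all of whose simplices have their boundary at
the base point is represented by one such simplex. -/
theorem exists_single (z : Z) (n : ℕ) (c : Ch (n + 1) Z) (hc : c ∈ Sk ({z} : Set Z) (n + 1) (n + 1)) :
    ∃ σ : C(Dl (n + 2), Z), (∀ i x, σ (face (n + 1) i x) = z) ∧
      Null univ ({z} : Set Z) (n + 1) (c - Finsupp.single σ 1) := by
  have hadd : ∀ a b : Ch (n + 1) Z,
      (∃ σ : C(Dl (n + 2), Z), (∀ i x, σ (face (n + 1) i x) = z) ∧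
        Null univ ({z} : Set Z) (n + 1) (a - Finsupp.single σ 1)) →
      (∃ σ : C(Dl (n + 2), Z), (∀ i x, σ (face (n + 1) i x) = z) ∧
        Null univ ({z} : Set Z) (n + 1) (b - Finsupp.single σ 1)) →
      ∃ σ : C(Dl (n + 2), Z), (∀ i x, σ (face (n + 1) i x) = z) ∧
        Null univ ({z} : Set Z) (n + 1) (a + b - Finsupp.single σ 1) := by
    rintro a b ⟨σ1, h1, n1⟩ ⟨σ2, h2, n2⟩
    obtain ⟨σ3, h3, n3⟩ := exists_add z n 0 σ1 σ2 h1 h2
    refine ⟨σ3, h3, ?_⟩
    rw [Fin.val_zero, pow_zero, one_smul] at n3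
    have := null_add (null_add n1 n2) n3
    rwa [show a - Finsupp.single σ1 1 + (b - Finsupp.single σ2 1) + (Finsupp.single σ1 1 +
      Finsupp.single σ2 1 - Finsupp.single σ3 1) = a + b - Finsupp.single σ3 1 by abel] at this
  have hzero : ∃ σ : C(Dl (n + 2), Z), (∀ i x, σ (face (n + 1) i x) = z) ∧
      Null univ ({z} : Set Z) (n + 1) (0 - Finsupp.single σ 1) := by
    refine ⟨ContinuousMap.const _ z, fun _ _ => rfl, null_of_con ?_⟩
    rw [zero_sub]
    exact Submodule.neg_mem _ (single_mem (fun _ => rfl) 1)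
  refine Sk_ind (P := fun c => ∃ σ : C(Dl (n + 2), Z), (∀ i x, σ (face (n + 1) i x) = z) ∧
      Null univ ({z} : Set Z) (n + 1) (c - Finsupp.single σ 1)) hzero hadd ?_ hc
  intro m σ hσ
  have hb : ∀ i x, σ (face (n + 1) i x) = z := by
    intro i x
    refine hσ _ ?_
    rw [card_face]
    exact (Finset.card_le_univ _).trans (by simp)
  have hpos : ∃ τ : C(Dl (n + 2), Z), (∀ i x, τ (face (n + 1) i x) = z) ∧
      Null univ ({z} : Set Z) (n + 1) (Finsupp.single σ 1 - Finsupp.single τ 1) :=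
    ⟨σ, hb, by rw [sub_self]; exact null_zero⟩
  have hneg : ∃ τ : C(Dl (n + 2), Z), (∀ i x, τ (face (n + 1) i x) = z) ∧
      Null univ ({z} : Set Z) (n + 1) (Finsupp.single σ (-1) - Finsupp.single τ 1) := by
    obtain ⟨τ, h3, n3⟩ := exists_add z n 1 (ContinuousMap.const _ z) σ (fun _ _ => rfl) hb
    refine ⟨τ, h3, ?_⟩
    have h4 : Null univ ({z} : Set Z) (n + 1)
        (Finsupp.single (ContinuousMap.const (Dl (n + 2)) z) (1 : ℤ)) :=
      null_of_con (single_mem (fun _ => rfl) 1)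
    have := null_sub n3 h4
    have e : ((-1 : ℤ) ^ (((1 : Fin (n + 2)) : ℕ))) • (Finsupp.single σ (1 : ℤ)) =
        Finsupp.single σ (-1) := by
      rw [Finsupp.smul_single]
      simp
    rw [e] at this
    rwa [show Finsupp.single (ContinuousMap.const (Dl (n + 2)) z) (1 : ℤ) + Finsupp.single σ (-1) -
      Finsupp.single τ 1 - Finsupp.single (ContinuousMap.const (Dl (n + 2)) z) 1 =
      Finsupp.single σ (-1) - Finsupp.single τ 1 by abel] at this
  induction m using Int.induction_on with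
  | zero => rw [Finsupp.single_zero]; exact hzero
  | succ i ih => rw [Finsupp.single_add]; exact hadd _ _ ih hpos
  | pred i ih => rw [sub_eq_add_neg, Finsupp.single_add]; exact hadd _ _ ih hneg

/-- **Surjectivity of the Hurewicz map.** -/
theorem hur_surj (z : Z) (n : ℕ) (hL : ∀ k < n + 1, LftS ({z} : Set Z) k) (c : Ch (n + 1) Z)
    (hc : RCyc ({z} : Set Z) (n + 1) c) :
    ∃ σ : C(Dl (n + 2), Z), (∀ i x, σ (face (n + 1) i x) = z) ∧
      Null univ ({z} : Set Z) (n + 1) (c - Finsupp.single σ 1) := by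
  obtain ⟨ρ, D, h1, h2, h3, h4, h5, h6, h7⟩ := HC.main Z {z} (n + 1) hL
  obtain ⟨σ, hσ, hn⟩ := exists_single z n (ρ (n + 1) c) (h6 (n + 1) c)
  refine ⟨σ, hσ, ?_⟩
  have e1 : Null univ ({z} : Set Z) (n + 1) (ρ (n + 1) c - c) := by
    refine ⟨D (n + 1) c, Con_univ _, ?_⟩
    rw [h3, sub_sub_cancel]; exact h5 n _ hc
  have := null_sub hn e1
  rwa [show ρ (n + 1) c - Finsupp.single σ 1 - (ρ (n + 1) c - c) = c - Finsupp.single σ 1 by abel]
    at this

end Vale.Agent.P178.H956
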