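import Vale.Agent.P178.H956.HurSurj
import Mathlib.Topology.Homotopy.HomotopyGroup

/-! # P178: the Hurewicz theorem for Mathlib's homotopy groups -/

namespace Vale.Agent.P178.H956

open Topology Metric Set Vale.Agent.P246.T Vale.Agent.P246.T.PR

/-! ### Maps of homotopy groups -/

section Map

variable {N X Y W : Type*} [TopologicalSpace X] [TopologicalSpace Y] [TopologicalSpace W]

/-- The map on cubical loops induced by a continuous map. -/
def loopMap (f : C(X, Y)) (x : X) (γ : GenLoop N X x) : GenLoop N Y (f x) :=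
  ⟨f.comp γ.1, fun y hy => congrArg f (γ.2 y hy)⟩

/-- The class of a cubical loop. -/
def cl {x : X} (γ : GenLoop N X x) : HomotopyGroup N X x := Quotient.mk _ γ

theorem cl_surj {x : X} (α : HomotopyGroup N X x) : ∃ γ, cl γ = α := Quotient.exists_rep α

/-- The map on homotopy groups induced by a continuous map. -/
def piMap (f : C(X, Y)) (x : X) : HomotopyGroup N X x → HomotopyGroup N Y (f x) :=
  Quotient.map (loopMap f x) fun _ _ h => ContinuousMap.HomotopicRel.comp_continuousMap h f

theorem piMap_cl (f : C(X, Y)) (x : X) (γ : GenLoop N X x) :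
    piMap f x (cl γ) = cl (loopMap f x γ) := rfl

theorem piMap_comp (g : C(Y, W)) (f : C(X, Y)) (x : X) (α : HomotopyGroup N X x) :
    piMap (g.comp f) x α = piMap g (f x) (piMap f x α) := by
  obtain ⟨γ, rfl⟩ := cl_surj α
  rfl

theorem piMap_one [DecidableEq N] [Nonempty N] (f : C(X, Y)) (x : X) :
    piMap f x (1 : HomotopyGroup N X x) = 1 := by
  rw [HomotopyGroup.one_def, HomotopyGroup.one_def]
  rfl

theorem loopMap_transAt [DecidableEq N] (f : C(X, Y)) (x : X) (i : N) (p q : GenLoop N X x) :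
    loopMap f x (GenLoop.transAt i p q) = GenLoop.transAt i (loopMap f x p) (loopMap f x q) := by
  ext t
  change f (if _ then _ else _) = if _ then _ else _
  split_ifs <;> rfl

theorem piMap_mul [DecidableEq N] [Nonempty N] (f : C(X, Y)) (x : X)
    (α β : HomotopyGroup N X x) : piMap f x (α * β) = piMap f x α * piMap f x β := by
  obtain ⟨p, rfl⟩ := cl_surj α
  obtain ⟨q, rfl⟩ := cl_surj β
  let i : N := Classical.arbitrary N
  have h1 : cl p * cl q = cl (GenLoop.transAt i q p) := HomotopyGroup.mul_spec (i := i)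
  have h2 : cl (loopMap f x p) * cl (loopMap f x q) =
    cl (GenLoop.transAt i (loopMap f x q) (loopMap f x p)) := HomotopyGroup.mul_spec (i := i)
  rw [h1, piMap_cl, piMap_cl, piMap_cl, h2, loopMap_transAt]

/-- The homomorphism on homotopy groups induced by a continuous map. -/
def piHom [DecidableEq N] [Nonempty N] (f : C(X, Y)) (x : X) :
    HomotopyGroup N X x →* HomotopyGroup N Y (f x) where
  toFun := piMap f x
  map_one' := piMap_one f x
  map_mul' := piMap_mul f x

end Map

/-! ### Cubes and simplices -/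

/-- the homeomorphism of the unit cube with the cube `[-1, 1]^n` -/
noncomputable def cubeDk (n : ℕ) : (Fin n → I) ≃ₜ Dk n where
  toFun y := ⟨fun i => 2 * (y i : ℝ) - 1, by
    rw [mem_closedBall_zero_iff, pi_norm_le_iff_of_nonneg zero_le_one]
    intro i
    rw [Real.norm_eq_abs, abs_le]
    constructor <;> linarith [(y i).2.1, (y i).2.2]⟩
  invFun z := fun i => ⟨((z : Fin n → ℝ) i + 1) / 2, by
    have h := (pi_norm_le_iff_of_nonneg zero_le_one).1 (mem_closedBall_zero_iff.1 z.2) i
    rw [Real.norm_eq_abs, abs_le] at h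
    constructor <;> linarith [h.1, h.2]⟩
  left_inv y := by
    funext i
    refine Subtype.ext ?_
    show (2 * (y i : ℝ) - 1 + 1) / 2 = y i
    ring
  right_inv z := by
    refine Subtype.ext (funext fun i => ?_)
    show 2 * (((z : Fin n → ℝ) i + 1) / 2) - 1 = (z : Fin n → ℝ) i
    ring
  continuous_toFun := by
    refine Continuous.subtype_mk (continuous_pi fun i => ?_) _
    fun_prop
  continuous_invFun := by
    refine continuous_pi fun i => Continuous.subtype_mk ?_ _
    have : Continuous fun z : Dk n => (z : Fin n → ℝ) i :=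
      (continuous_apply i).comp continuous_subtype_val
    exact (this.add continuous_const).div_const _

theorem cubeDk_mem (n : ℕ) (hn : n ≠ 0) (y : Fin n → I) :
    cubeDk n y ∈ bdk n ↔ y ∈ Cube.boundary (Fin n) := by
  have : Nonempty (Fin n) := ⟨⟨0, Nat.pos_of_ne_zero hn⟩⟩
  have hle : ∀ i, ‖2 * (y i : ℝ) - 1‖ ≤ 1 := fun i => by
    rw [Real.norm_eq_abs, abs_le]
    constructor <;> linarith [(y i).2.1, (y i).2.2]
  have hv : ‖(fun i => 2 * (y i : ℝ) - 1 : Fin n → ℝ)‖ ≤ 1 :=
    (pi_norm_le_iff_of_nonneg zero_le_one).2 hle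
  have key : ∀ i, ‖2 * (y i : ℝ) - 1‖ = 1 ↔ (y i = 0 ∨ y i = 1) := by
    intro i
    rw [Real.norm_eq_abs, abs_eq zero_le_one]
    constructor
    · rintro (h | h)
      · exact Or.inr (Subtype.ext (by show (y i : ℝ) = 1; linarith))
      · exact Or.inl (Subtype.ext (by show (y i : ℝ) = 0; linarith))
    · rintro (h | h)
      · right; rw [h]; norm_num
      · left; rw [h]; norm_num
  show ‖(fun i => 2 * (y i : ℝ) - 1 : Fin n → ℝ)‖ = 1 ↔ ∃ i, y i = 0 ∨ y i = 1
  constructor
  · intro h
    by_contra hcon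
    push Not at hcon
    have h1 : ∀ i, ‖2 * (y i : ℝ) - 1‖ < 1 := fun i =>
      lt_of_le_of_ne (hle i) fun h => by
        rcases (key i).1 h with h | h
        · exact (hcon i).1 h
        · exact (hcon i).2 h
    have h2 := (pi_norm_lt_iff (x := (fun i => 2 * (y i : ℝ) - 1 : Fin n → ℝ))
      (zero_lt_one' ℝ)).2 h1
    exact h2.ne h
  · rintro ⟨i, hi⟩
    refine le_antisymm hv ?_
    have h2 := norm_le_pi_norm (fun i => 2 * (y i : ℝ) - 1 : Fin n → ℝ) i
    have h3 : ‖2 * (y i : ℝ) - 1‖ = 1 := (key i).2 hi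
    linarith

theorem exists_cubeDl (n : ℕ) : ∃ h : (Fin (n + 1) → I) ≃ₜ Dl (n + 2),
    ∀ y, y ∈ Cube.boundary (Fin (n + 1)) ↔ ∃ i, h y i = 0 := by
  obtain ⟨h, hh⟩ := CV.simplexBall (n + 1)
  refine ⟨(cubeDk (n + 1)).trans h.symm, fun y => ?_⟩
  rw [hh]
  show _ ↔ h (h.symm (cubeDk (n + 1) y)) ∈ bdk (n + 1)
  rw [h.apply_symm_apply, cubeDk_mem _ (Nat.succ_ne_zero n)]

/-- a homeomorphism of pairs from the cube to the simplex -/
noncomputable def cubeDl (n : ℕ) : (Fin (n + 1) → I) ≃ₜ Dl (n + 2) := (exists_cubeDl n).choose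

theorem cubeDl_boundary (n : ℕ) (y : Fin (n + 1) → I) :
    y ∈ Cube.boundary (Fin (n + 1)) ↔ ∃ i, cubeDl n y i = 0 := (exists_cubeDl n).choose_spec y

section Loop

variable {Z : Type} [TopologicalSpace Z]

/-- the cubical loop of a simplex with boundary at the base point -/
noncomputable def loopOf {n : ℕ} (z : Z) (σ : C(Dl (n + 2), Z))
    (hσ : ∀ i x, σ (face (n + 1) i x) = z) : GenLoop (Fin (n + 1)) Z z :=
  ⟨σ.comp ⟨cubeDl n, (cubeDl n).continuous⟩, fun y hy => by
    obtain ⟨i, hi⟩ := (cubeDl_boundary n y).1 hy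
    exact bdry_apply hσ hi⟩

theorem loopOf_null {n : ℕ} (z : Z) (σ : C(Dl (n + 2), Z))
    (hσ : ∀ i x, σ (face (n + 1) i x) = z) :
    cl (loopOf z σ hσ) = 1 ↔ NullH z (n + 1) σ := by
  rw [HomotopyGroup.one_def]
  constructor
  · intro h
    obtain ⟨H⟩ : GenLoop.Homotopic (loopOf z σ hσ) GenLoop.const := Quotient.exact h
    refine ⟨⟨fun q => H (q.1, (cubeDl n).symm q.2), ?_⟩, fun x => ?_, fun x => ?_,
      fun i t x => ?_⟩
    · exact H.continuous.comp (continuous_fst.prodMk ((cubeDl n).symm.continuous.comp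
        continuous_snd))
    · show H (0, (cubeDl n).symm x) = σ x
      rw [H.apply_zero]
      show σ (cubeDl n ((cubeDl n).symm x)) = σ x
      rw [(cubeDl n).apply_symm_apply]
    · show H (1, (cubeDl n).symm x) = z
      rw [H.apply_one]
      rfl
    · show H (t, (cubeDl n).symm (face (n + 1) i x)) = z
      have hb : (cubeDl n).symm (face (n + 1) i x) ∈ Cube.boundary (Fin (n + 1)) := by
        rw [cubeDl_boundary]
        exact ⟨i, by rw [(cubeDl n).apply_symm_apply, CV.face_self]⟩
      rw [H.eq_fst t hb]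
      show σ (cubeDl n ((cubeDl n).symm (face (n + 1) i x))) = z
      rw [(cubeDl n).apply_symm_apply, hσ]
  · rintro ⟨K, h0, h1, hf⟩
    refine Quotient.sound ⟨⟨⟨⟨fun q => K (q.1, cubeDl n q.2), ?_⟩, fun y => ?_, fun y => ?_⟩,
      fun t y hy => ?_⟩⟩
    · exact K.continuous.comp (continuous_fst.prodMk ((cubeDl n).continuous.comp
        continuous_snd))
    · show K (0, cubeDl n y) = σ (cubeDl n y)
      rw [h0]
    · show K (1, cubeDl n y) = z
      rw [h1]
    · show K (t, cubeDl n y) = σ (cubeDl n y)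
      obtain ⟨i, hi⟩ := (cubeDl_boundary n y).1 hy
      rw [bdry_apply hσ hi]
      obtain ⟨w, hw⟩ := CV.exists_face i hi
      rw [← hw, hf]

theorem loopMap_loopOf {n : ℕ} {Y : Type} [TopologicalSpace Y] (f : C(Z, Y)) (z : Z)
    (σ : C(Dl (n + 2), Z)) (hσ : ∀ i x, σ (face (n + 1) i x) = z) :
    loopMap f z (loopOf z σ hσ) = loopOf (f z) (f.comp σ) (fun i x => congrArg f (hσ i x)) := rfl

/-- homotopy invariance of the Hurewicz map -/
theorem null_of_nullH {n : ℕ} (z : Z) (σ : C(Dl (n + 2), Z)) (h : NullH z (n + 1) σ) :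
    Null univ ({z} : Set Z) (n + 1) (Finsupp.single σ 1) := by
  obtain ⟨K, h0, h1, hf⟩ := h
  refine ⟨-pc (n + 2) K, Con_univ _, ?_⟩
  have hK0 : Hm.at K 0 = σ := ContinuousMap.ext h0
  have hK1 : Hm.at K 1 = ContinuousMap.const _ z := ContinuousMap.ext h1
  rw [map_neg, bd_pc, hK0, hK1, sub_neg_eq_add]
  have e : Finsupp.single σ (1 : ℤ) + (Finsupp.single (ContinuousMap.const (Dl (n + 2)) z) 1 -
      Finsupp.single σ 1 - ∑ i : Fin (n + 2), ((-1 : ℤ) ^ (i : ℕ)) • pc (n + 1) (Hm.fc K i)) =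
      Finsupp.single (ContinuousMap.const (Dl (n + 2)) z) 1 -
        ∑ i : Fin (n + 2), ((-1 : ℤ) ^ (i : ℕ)) • pc (n + 1) (Hm.fc K i) := by abel
  rw [e]
  refine Submodule.sub_mem _ (single_mem (fun _ => rfl) 1) (Submodule.sum_mem _ fun i _ =>
    Submodule.smul_mem _ _ (pc_mem _ _ fun t x => hf i t x))

end Loop

/-! ### The Hurewicz theorem -/

/-- **The Hurewicz theorem**, in the form which we need. Let `X` be simply connected with
`H_k(X, x) = 0` for `k < n + 2` and let `c` be a relative cycle of degree `n + 2`. There is an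
element `α` of `π_{n+2}(X, x)` such that for every map `f : X → Y`
* if `f_*(α) = 1` then `f_*(c)` represents zero in `H_{n+2}(Y, f(x))`;
* if `Y` is simply connected with `H_k(Y, f(x)) = 0` for `k < n + 2` and `f_*(c)` represents zero
in `H_{n+2}(Y, f(x))` then `f_*(α) = 1`. -/
theorem exists_pi (n : ℕ) (X : Type) [TopologicalSpace X] [SimplyConnectedSpace X] (x : X)
    (hX : ∀ k < n + 2, HZero univ ({x} : Set X) k) (c : Ch (n + 2) X)
    (hc : RCyc ({x} : Set X) (n + 2) c) :
    ∃ α : HomotopyGroup (Fin (n + 2)) X x,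
      (∀ (Y : Type) [TopologicalSpace Y] (f : C(X, Y)), piMap f x α = 1 →
        Null univ ({f x} : Set Y) (n + 2) (push f (n + 2) c)) ∧
      ∀ (Y : Type) [TopologicalSpace Y] [SimplyConnectedSpace Y] (f : C(X, Y)),
        (∀ k < n + 2, HZero univ ({f x} : Set Y) k) →
        Null univ ({f x} : Set Y) (n + 2) (push f (n + 2) c) → piMap f x α = 1 := by
  have hsc : SimplyConnectedSpace ({x} : Set X) := by
    have : Unique ({x} : Set X) := Set.uniqueSingleton x
    infer_instance
  have hL : ∀ k < n + 2, LftS ({x} : Set X) k := fun k hk =>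
    relHur (n + 1) X {x} (fun j hj => hX j (by omega)) k (by omega)
  obtain ⟨σ, hσ, hn⟩ := hur_surj x (n + 1) hL c hc
  have hpush : ∀ (Y : Type) [TopologicalSpace Y] (f : C(X, Y)),
      Null univ ({f x} : Set Y) (n + 2) (push f (n + 2) c - Finsupp.single (f.comp σ) 1) := by
    intro Y _ f
    have h1 := null_push (f := f) (D := univ) (E := {f x}) (fun _ _ => mem_univ _) (fun y hy => by
      rw [mem_singleton_iff] at hy ⊢
      rw [hy]) hn
    rwa [map_sub, push_single] at h1
  refine ⟨cl (loopOf x σ hσ), fun Y _ f h => ?_, fun Y _ _ f hY h => ?_⟩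
  · rw [piMap_cl, loopMap_loopOf, loopOf_null] at h
    exact (null_iff (hpush Y f)).2 (null_of_nullH (f x) (f.comp σ) h)
  · rw [piMap_cl, loopMap_loopOf, loopOf_null]
    exact hur_inj n Y (f x) hY (f.comp σ) (fun i y => congrArg f (hσ i y))
      ((null_iff (hpush Y f)).1 h)

end Vale.Agent.P178.H956
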