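import Vale.Agent.P246.T.RH2
import Vale.Agent.P246.T.RH3
import Vale.Agent.P246.T.LL
import Vale.Agent.P246.T.BS
import Vale.Agent.P246.T.HC
import Vale.Agent.P246.T.RH1

/-! # P178: the relative Hurewicz theorem in vanishing form, with the range of degrees -/

namespace Vale.Agent.P178.H956

open Topology Metric Set Vale.Agent.P246.T

/-- **Relative Hurewicz theorem, vanishing form, in a range.** -/
theorem relHur (n : ℕ) : ∀ (B : Type) [TopologicalSpace B] [SimplyConnectedSpace B] (A : Set B)
    [SimplyConnectedSpace A], (∀ k ≤ n, HZero univ A k) → ∀ k ≤ n, LftS A k := by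
  have key : ∀ n : ℕ, ∀ (B : Type) [TopologicalSpace B] [SimplyConnectedSpace B] (A : Set B)
      [SimplyConnectedSpace A], (∀ k ≤ n + 1, HZero univ A k) → ∀ k ≤ n + 1, LftS A k := by
    intro n
    induction n with
    | zero =>
      intro B _ _ A _ _ k hk
      have hA : IsPathConnected A := isPathConnected_iff_pathConnectedSpace.2 inferInstance
      rcases k with _ | _ | k
      · exact RH.lft0 hA.nonempty
      · exact RH.lft1 hA
      · omega
    | succ n ih =>
      intro B _ _ A _ hz k hk
      rcases Nat.lt_or_ge k (n + 2) with h | h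
      · exact ih B A (fun j hj => hz j (by omega)) k (by omega)
      · obtain rfl : k = n + 2 := by omega
        exact RH.step PS.main (LL.main_of HC.main) BS.main RH.cyc_bound RH.hzero_pt RH.ext_of_lft
          n ih B A fun j hj => hz j (by omega)
  intro B _ _ A _ hz k hk
  have hA : IsPathConnected A := isPathConnected_iff_pathConnectedSpace.2 inferInstance
  rcases k with _ | _ | k
  · exact RH.lft0 hA.nonempty
  · exact RH.lft1 hA
  · obtain ⟨m, rfl⟩ : ∃ m, n = m + 1 := ⟨n - 1, by omega⟩
    exact key m B A hz (k + 2) hk

end Vale.Agent.P178.H956
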